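import Mathlib

/-!
# P171, row LP5: from the Lebowitz-Penrose claim to the mean-field increment bound

Abstract real analysis (no project definitions).  `f m = F(m, t')`, `g2 m = F(m, 2 t')`,
`Fn n σ = F(μ, t' + σ e_n)`, `Fpp n m = F(m, t''_n)`.
-/

open Filter Topology Finset

namespace Vale.Agent.H68.P171

/-- a sum of exponentials with a geometric tail is dominated by its largest early term -/
lemma sum_exp_le (E : ℕ → ℝ) (J1 : ℕ) (hJ1 : 0 < J1) (κ : ℝ) (hκ : 0 < κ) (hE0 : 0 ≤ E 0)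
    (htail : ∀ j, J1 ≤ j → E j ≤ -κ * j) :
    ∃ jstar, jstar < J1 ∧ ∀ J : Finset ℕ,
      ∑ j ∈ J, Real.exp (E j) ≤ ((J1 : ℝ) + (1 - Real.exp (-κ))⁻¹) * Real.exp (E jstar) := by
  have hne : (Finset.range J1).Nonempty := ⟨0, Finset.mem_range.mpr hJ1⟩
  obtain ⟨jstar, hjs, hmax⟩ := Finset.exists_max_image (Finset.range J1) E hne
  refine ⟨jstar, Finset.mem_range.mp hjs, fun J => ?_⟩
  have hr0 : 0 ≤ Real.exp (-κ) := (Real.exp_pos _).le
  have hr1 : Real.exp (-κ) < 1 := by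
    have h := Real.exp_lt_exp.mpr (show -κ < 0 by linarith)
    rwa [Real.exp_zero] at h
  have hE1 : 1 ≤ Real.exp (E jstar) := by
    have h0 : E 0 ≤ E jstar := hmax 0 (Finset.mem_range.mpr hJ1)
    have : (0:ℝ) ≤ E jstar := le_trans hE0 h0
    exact Real.one_le_exp this
  have hT0 : 0 ≤ (1 - Real.exp (-κ))⁻¹ := inv_nonneg.mpr (by linarith)
  -- split the sum
  rw [← Finset.sum_filter_add_sum_filter_not J (fun j => j < J1)]
  have h1 : ∑ j ∈ J.filter (fun j => j < J1), Real.exp (E j)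
      ≤ (J1 : ℝ) * Real.exp (E jstar) := by
    calc ∑ j ∈ J.filter (fun j => j < J1), Real.exp (E j)
        ≤ ∑ j ∈ Finset.range J1, Real.exp (E j) := by
          apply Finset.sum_le_sum_of_subset_of_nonneg
          · intro j hj
            exact Finset.mem_range.mpr (Finset.mem_filter.mp hj).2
          · intro j _ _
            exact (Real.exp_pos _).le
      _ ≤ ∑ _j ∈ Finset.range J1, Real.exp (E jstar) := by
          apply Finset.sum_le_sum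
          intro j hj
          exact Real.exp_le_exp.mpr (hmax j hj)
      _ = (J1 : ℝ) * Real.exp (E jstar) := by
          rw [Finset.sum_const, Finset.card_range, nsmul_eq_mul]
  have h2 : ∑ j ∈ J.filter (fun j => ¬ j < J1), Real.exp (E j)
      ≤ (1 - Real.exp (-κ))⁻¹ * Real.exp (E jstar) := by
    calc ∑ j ∈ J.filter (fun j => ¬ j < J1), Real.exp (E j)
        ≤ ∑ j ∈ J.filter (fun j => ¬ j < J1), Real.exp (-κ) ^ j := by
          apply Finset.sum_le_sum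
          intro j hj
          have hj' : J1 ≤ j := not_lt.mp (Finset.mem_filter.mp hj).2
          rw [← Real.exp_nat_mul]
          apply Real.exp_le_exp.mpr
          have := htail j hj'
          linarith
      _ ≤ ∑' j : ℕ, Real.exp (-κ) ^ j :=
          (summable_geometric_of_lt_one hr0 hr1).sum_le_tsum _ (fun j _ => pow_nonneg hr0 j)
      _ = (1 - Real.exp (-κ))⁻¹ := tsum_geometric_of_lt_one hr0 hr1
      _ ≤ (1 - Real.exp (-κ))⁻¹ * Real.exp (E jstar) := le_mul_of_one_le_right hT0 hE1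
  linarith

/-- `(L + 1)^3 ≤ 2 L^3` for `L ≥ 4` -/
lemma lp5_cube_le (L : ℝ) (hL : 4 ≤ L) : (L + 1) ^ 3 ≤ 2 * L ^ 3 := by
  have h : 2 * L ^ 3 - (L + 1) ^ 3 = (L - 4) * (L ^ 2 + L + 1) + 3 := by ring
  have h2 : 0 ≤ (L - 4) * (L ^ 2 + L + 1) := by
    apply mul_nonneg (by linarith)
    nlinarith [sq_nonneg L]
  linarith

/-- `(L + 1)^3 / L^3 - 1 ≤ 7 / L` for `L ≥ 1` -/
lemma lp5_cube_ratio (L : ℝ) (hL : 1 ≤ L) : (L + 1) ^ 3 / L ^ 3 ≤ 1 + 7 / L := by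
  have hL0 : 0 < L := by linarith
  have hL3 : 0 < L ^ 3 := by positivity
  rw [div_le_iff₀ hL3]
  have e : (1 + 7 / L) * L ^ 3 = L ^ 3 + 7 * L ^ 2 := by
    field_simp
  rw [e]
  nlinarith [sq_nonneg L, mul_nonneg (sub_nonneg.mpr hL) (sub_nonneg.mpr hL)]

/-- bound of the quadratic majorant along a nonnegative shift -/
lemma lp5_quad (g2 : ℝ → ℝ) (A C : ℝ) (hA : 0 < A)
    (hQ : ∀ m, g2 m ≤ 1 + (max (m + C) 0) ^ 2 / (4 * A)) (μ u : ℝ) (hu : 0 ≤ u) :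
    g2 (μ + u) ≤ 1 + (|μ + C| + u) ^ 2 / (4 * A) := by
  refine le_trans (hQ (μ + u)) ?_
  have h1 : 0 ≤ max (μ + u + C) 0 := le_max_right _ _
  have h2 : max (μ + u + C) 0 ≤ |μ + C| + u := by
    apply max_le
    · have := le_abs_self (μ + C)
      linarith
    · have := abs_nonneg (μ + C)
      linarith
  have h3 : (max (μ + u + C) 0) ^ 2 ≤ (|μ + C| + u) ^ 2 := by
    apply pow_le_pow_left₀ h1 h2
  have h4 : (max (μ + u + C) 0) ^ 2 / (4 * A) ≤ (|μ + C| + u) ^ 2 / (4 * A) := by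
    apply div_le_div_of_nonneg_right h3 (by positivity)
  linarith

/-- beyond the cut the quadratic term dominates the constant and a linear term -/
lemma lp5_quad_dom (V σ s c0 d1v d : ℝ) (hV : 0 < V) (hσ : 0 < σ) (hs1 : V * σ / 2 ≤ s)
    (hd1 : 0 < d1v) (hd1sq : 3 * V * σ * d1v ^ 2 = 16 * c0) (hdd : d1v ≤ d) :
    c0 + 3 / 16 * V * σ * d1v * d ≤ 3 / 4 * s * d ^ 2 := by
  have hw : 0 < V * σ / 2 := by positivity
  have hd0 : 0 ≤ d := le_trans hd1.le hdd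
  have q1 : d1v ^ 2 ≤ d ^ 2 := pow_le_pow_left₀ hd1.le hdd 2
  have q2 : d1v * d ≤ d ^ 2 := by
    rw [sq]
    exact mul_le_mul_of_nonneg_right hdd hd0
  have q3 : c0 + 3 / 16 * V * σ * d1v * d = 3 / 8 * (V * σ / 2) * (d1v ^ 2 + d1v * d) := by
    have : c0 = 3 / 16 * V * σ * d1v ^ 2 := by linarith
    rw [this]
    ring
  rw [q3]
  have q4 : 3 / 8 * (V * σ / 2) * (d1v ^ 2 + d1v * d) ≤ 3 / 8 * (V * σ / 2) * (2 * d ^ 2) := by
    apply mul_le_mul_of_nonneg_left (by linarith) (by positivity)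
  have q5 : 3 / 8 * (V * σ / 2) * (2 * d ^ 2) ≤ 3 / 8 * s * (2 * d ^ 2) := by
    apply mul_le_mul_of_nonneg_right _ (by positivity)
    linarith
  have q6 : 3 / 8 * s * (2 * d ^ 2) = 3 / 4 * s * d ^ 2 := by ring
  linarith

/-- the exponent of the `j`-th term is at most `-κ j` beyond the cut `d1` -/
lemma lp5_tail (V σ s L A a c0 d1v x Φ : ℝ) (hV : 0 < V) (hσ : 0 < σ)
    (hs1 : V * σ / 2 ≤ s) (hs2 : 32 * s ≤ A) (hL : 4 ≤ L) (hc0 : c0 = 4 + 2 * a ^ 2 / A)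
    (hd1 : 0 < d1v) (hd1sq : 3 * V * σ * d1v ^ 2 = 16 * c0) (hx : d1v * L ^ 3 ≤ x)
    (hΦ : Φ ≤ 2 * (1 + (a + 2 * s * x / L ^ 3) ^ 2 / (4 * A))) :
    -s * x ^ 2 / L ^ 3 + (L + 1) ^ 3 * Φ ≤ -(3 / 16 * V * σ * d1v) * x := by
  have hL0 : 0 < L := by linarith
  have hL3 : 0 < L ^ 3 := by positivity
  have hs0 : 0 < s := by
    have : 0 < V * σ / 2 := by positivity
    linarith
  have hA0 : 0 < A := by linarith
  obtain ⟨d, hd⟩ : ∃ d : ℝ, d = x / L ^ 3 := ⟨_, rfl⟩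
  have hxd : x = d * L ^ 3 := by
    rw [hd]
    field_simp
  have hdd : d1v ≤ d := by
    rw [hd, le_div_iff₀ hL3]
    exact hx
  have hd0 : 0 < d := lt_of_lt_of_le hd1 hdd
  have e1 : 2 * s * x / L ^ 3 = 2 * s * d := by
    rw [hd]
    ring
  rw [e1] at hΦ
  have e2 : -s * x ^ 2 / L ^ 3 = -s * d ^ 2 * L ^ 3 := by
    rw [hxd]
    field_simp
  rw [e2]
  -- bound of Φ
  have h1 : (a + 2 * s * d) ^ 2 ≤ 2 * a ^ 2 + 8 * s ^ 2 * d ^ 2 := by
    nlinarith [sq_nonneg (a - 2 * s * d)]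
  have h2 : (a + 2 * s * d) ^ 2 / (4 * A) ≤ (2 * a ^ 2 + 8 * s ^ 2 * d ^ 2) / (4 * A) :=
    div_le_div_of_nonneg_right h1 (by positivity)
  have h3 : (2 * a ^ 2 + 8 * s ^ 2 * d ^ 2) / (4 * A) = a ^ 2 / (2 * A) + 2 * s ^ 2 * d ^ 2 / A := by
    field_simp
    ring
  have h4 : 2 * s ^ 2 * d ^ 2 / A ≤ s * d ^ 2 / 16 := by
    rw [div_le_iff₀ hA0]
    have : 0 ≤ s * d ^ 2 := by positivity
    nlinarith
  have h5 : Φ ≤ 2 + a ^ 2 / A + s * d ^ 2 / 8 := by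
    have e : a ^ 2 / (2 * A) = a ^ 2 / A / 2 := by
      field_simp
    rw [e] at h3
    linarith
  have h6 : (L + 1) ^ 3 * Φ ≤ 2 * L ^ 3 * (2 + a ^ 2 / A + s * d ^ 2 / 8) := by
    have hΦ' : 0 ≤ 2 + a ^ 2 / A + s * d ^ 2 / 8 := by positivity
    have hc := lp5_cube_le L hL
    have hL1 : 0 ≤ (L + 1) ^ 3 := by positivity
    calc (L + 1) ^ 3 * Φ ≤ (L + 1) ^ 3 * (2 + a ^ 2 / A + s * d ^ 2 / 8) :=
          mul_le_mul_of_nonneg_left h5 hL1
      _ ≤ 2 * L ^ 3 * (2 + a ^ 2 / A + s * d ^ 2 / 8) :=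
          mul_le_mul_of_nonneg_right hc hΦ'
  have h7 : 2 * L ^ 3 * (2 + a ^ 2 / A + s * d ^ 2 / 8) = L ^ 3 * (c0 + s * d ^ 2 / 4) := by
    rw [hc0]
    ring
  -- the quadratic term dominates
  have h8 : c0 + 3 / 16 * V * σ * d1v * d ≤ 3 / 4 * s * d ^ 2 :=
    lp5_quad_dom V σ s c0 d1v d hV hσ hs1 hd1 hd1sq hdd
  rw [hxd]
  have h9 : -s * d ^ 2 * L ^ 3 + L ^ 3 * (c0 + s * d ^ 2 / 4)
      = L ^ 3 * (c0 - 3 / 4 * s * d ^ 2) := by ring
  have h10 : L ^ 3 * (c0 - 3 / 4 * s * d ^ 2) ≤ L ^ 3 * (-(3 / 16 * V * σ * d1v * d)) := by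
    apply mul_le_mul_of_nonneg_left _ hL3.le
    linarith
  have h11 : L ^ 3 * (-(3 / 16 * V * σ * d1v * d)) = -(3 / 16 * V * σ * d1v) * (d * L ^ 3) := by
    ring
  linarith

/-- **Row LP5.**  From the Lebowitz-Penrose claim (finite-sum form `hC`), the quadratic bound
`hQ`, the comparison `hM` and the forward increments `hE2` to the hypothesis `hup` of the
one-variable endgame: for every small `σ` and every `ε` there are `s ∈ [Vσ/2, V(1+ε)σ/2]` and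
`d ∈ [0, d1 σ]` with `c σ ≤ f (μ + 2 s d) - f μ - s d² + ε σ`, where `σ d1(σ) → 0`. -/
theorem lp5_hup (f g2 : ℝ → ℝ) (Fn Fpp : ℕ → ℝ → ℝ) (l pi_ tau : ℕ → ℝ) (n0 : ℕ)
    (μ V c σ0 A C : ℝ) (hV : 0 < V) (hσ0 : 0 < σ0) (hA : 32 * V * σ0 ≤ A)
    (hl : Tendsto l atTop atTop) (hpi : Tendsto pi_ atTop (𝓝 1))
    (htau0 : ∀ n, 0 ≤ tau n) (htau : Tendsto tau atTop (𝓝 0))
    (hf0 : ∀ m, 0 ≤ f m) (hfg : ∀ m, f m ≤ g2 m)
    (hQ : ∀ m, g2 m ≤ 1 + (max (m + C) 0) ^ 2 / (4 * A))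
    (hFpp0 : ∀ n m, 0 ≤ Fpp n m)
    (hM : ∀ n, n0 ≤ n → 1 / 2 ≤ pi_ n → ∀ m, Fpp n m ≤ f m + (1 / pi_ n - 1) * g2 m)
    (hE2 : ∀ n σ, 0 < σ → f μ + c * σ ≤ Fn n σ)
    (hC : ∀ n, n0 ≤ n → ∀ σ, 0 < σ → σ ≤ σ0 → ∀ S : ℝ,
      (∀ J : Finset ℕ, ∑ j ∈ J, Real.exp (-(V / 2 * (σ + tau n)) * (j : ℝ) ^ 2 / l n ^ 3
          + (l n + 1) ^ 3 * Fpp n (μ + 2 * (V / 2 * (σ + tau n)) * (j : ℝ) / l n ^ 3)) ≤ S) →
      Fn n σ ≤ Real.log S / l n ^ 3) :
    ∃ d1 : ℝ → ℝ, Tendsto (fun σ => σ * d1 σ) (𝓝[>] 0) (𝓝 0) ∧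
      ∀ σ, 0 < σ → σ < σ0 → ∀ ε, 0 < ε → ∃ s d, V * σ / 2 ≤ s ∧ s ≤ V * (1 + ε) * σ / 2 ∧
        0 ≤ d ∧ d ≤ d1 σ ∧ c * σ ≤ f (μ + 2 * s * d) - f μ - s * d ^ 2 + ε * σ := by
  have hA0 : 0 < A := by
    have : 0 < 32 * V * σ0 := by positivity
    linarith
  obtain ⟨c0, hc0⟩ : ∃ c0 : ℝ, c0 = 4 + 2 * |μ + C| ^ 2 / A := ⟨_, rfl⟩
  have hc04 : 4 ≤ c0 := by
    rw [hc0]
    have : 0 ≤ 2 * |μ + C| ^ 2 / A := by positivity
    linarith
  obtain ⟨k, hk⟩ : ∃ k : ℝ, k = Real.sqrt (16 * c0 / (3 * V)) := ⟨_, rfl⟩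
  have hkarg : 0 < 16 * c0 / (3 * V) := by
    have : 0 < c0 := by linarith
    positivity
  have hk0 : 0 < k := by
    rw [hk]
    exact Real.sqrt_pos.mpr hkarg
  have hksq : k ^ 2 = 16 * c0 / (3 * V) := by
    rw [hk]
    exact Real.sq_sqrt hkarg.le
  refine ⟨fun σ => k / Real.sqrt σ, ?_, ?_⟩
  · have e : (fun σ : ℝ => σ * (k / Real.sqrt σ)) = fun σ => k * Real.sqrt σ := by
      funext σ
      have : σ * (k / Real.sqrt σ) = k * (σ / Real.sqrt σ) := by ring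
      rw [this, Real.div_sqrt]
    rw [e]
    have hcont : Continuous fun σ : ℝ => k * Real.sqrt σ :=
      continuous_const.mul Real.continuous_sqrt
    have h := hcont.tendsto 0
    simp only [Real.sqrt_zero, mul_zero] at h
    exact h.mono_left nhdsWithin_le_nhds
  · intro σ hσ hσ' ε hε
    obtain ⟨ε1, hε1def⟩ : ∃ ε1 : ℝ, ε1 = min ε 1 := ⟨_, rfl⟩
    have hε1 : 0 < ε1 := by
      rw [hε1def]
      exact lt_min hε one_pos
    have hε1ε : ε1 ≤ ε := by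
      rw [hε1def]
      exact min_le_left _ _
    have hε11 : ε1 ≤ 1 := by
      rw [hε1def]
      exact min_le_right _ _
    have hsq0 : 0 < Real.sqrt σ := Real.sqrt_pos.mpr hσ
    obtain ⟨d1v, hd1v⟩ : ∃ d1v : ℝ, d1v = k / Real.sqrt σ := ⟨_, rfl⟩
    have hd1pos : 0 < d1v := by
      rw [hd1v]
      positivity
    have hd1sq : 3 * V * σ * d1v ^ 2 = 16 * c0 := by
      rw [hd1v, div_pow, hksq, Real.sq_sqrt hσ.le]
      field_simp
    obtain ⟨κ, hκdef⟩ : ∃ κ : ℝ, κ = 3 / 16 * V * σ * d1v := ⟨_, rfl⟩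
    have hκ : 0 < κ := by
      rw [hκdef]
      positivity
    obtain ⟨T, hTdef⟩ : ∃ T : ℝ, T = (1 - Real.exp (-κ))⁻¹ := ⟨_, rfl⟩
    have hT0 : 0 < T := by
      rw [hTdef]
      apply inv_pos.mpr
      have h := Real.exp_lt_exp.mpr (show -κ < 0 by linarith)
      rw [Real.exp_zero] at h
      linarith
    obtain ⟨K, hKdef⟩ : ∃ K : ℝ, K = 1 + (|μ + C| + 2 * V * σ * d1v) ^ 2 / (4 * A) := ⟨_, rfl⟩
    have hK1 : 1 ≤ K := by
      rw [hKdef]
      have : 0 ≤ (|μ + C| + 2 * V * σ * d1v) ^ 2 / (4 * A) := by positivity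
      linarith
    obtain ⟨G, hGdef⟩ : ∃ G : ℝ, G = |Real.log (d1v + 1 + T)| + 3 := ⟨_, rfl⟩
    have hεσ : 0 < ε1 * σ := by positivity
    -- choice of `n`
    have ev1 : ∀ᶠ n in atTop, 4 ≤ l n := hl.eventually_ge_atTop 4
    have ev2 : ∀ᶠ n in atTop, 21 * K / (ε1 * σ) ≤ l n := hl.eventually_ge_atTop _
    have ev3 : ∀ᶠ n in atTop, 3 * G / (ε1 * σ) ≤ l n := hl.eventually_ge_atTop _
    have ev4 : ∀ᶠ n in atTop, 1 / 2 < pi_ n := hpi.eventually (lt_mem_nhds (by norm_num))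
    have hpi' : Tendsto (fun n => (pi_ n)⁻¹ - 1) atTop (𝓝 0) := by
      have h := (hpi.inv₀ one_ne_zero).sub_const 1
      simpa using h
    have hη : 0 < min 1 (ε1 * σ / (6 * K)) := lt_min one_pos (by positivity)
    have ev5 : ∀ᶠ n in atTop, (pi_ n)⁻¹ - 1 < min 1 (ε1 * σ / (6 * K)) :=
      hpi'.eventually (gt_mem_nhds hη)
    have ev6 : ∀ᶠ n in atTop, tau n < ε1 * σ := htau.eventually (gt_mem_nhds hεσ)
    have ev7 : ∀ᶠ n in atTop, n0 ≤ n := eventually_ge_atTop n0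
    obtain ⟨n, h1, h2, h3, h4, h5, h6, h7⟩ :=
      (ev1.and (ev2.and (ev3.and (ev4.and (ev5.and (ev6.and ev7)))))).exists
    have hCn := hC n h7 σ hσ hσ'.le
    have hMn := hM n h7 h4.le
    have hE2n := hE2 n σ hσ
    have hτ0 := htau0 n
    obtain ⟨L, hL⟩ : ∃ L : ℝ, L = l n := ⟨_, rfl⟩
    obtain ⟨s, hs⟩ : ∃ s : ℝ, s = V / 2 * (σ + tau n) := ⟨_, rfl⟩
    rw [← hs, ← hL] at hCn
    rw [← hL] at h1 h2 h3
    have hL0 : 0 < L := by linarith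
    have hL1 : 1 ≤ L := by linarith
    have hL3 : 0 < L ^ 3 := by positivity
    have hs1 : V * σ / 2 ≤ s := by
      have : 0 ≤ V * tau n := mul_nonneg hV.le hτ0
      rw [hs]
      linarith
    have hs2 : s ≤ V * (1 + ε1) * σ / 2 := by
      have : V * tau n ≤ V * (ε1 * σ) := mul_le_mul_of_nonneg_left h6.le hV.le
      rw [hs]
      linarith
    have hs3 : s ≤ V * σ := by
      have : V * σ * ε1 ≤ V * σ := mul_le_of_le_one_right (by positivity) hε11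
      linarith
    have hs0 : 0 < s := lt_of_lt_of_le (by positivity) hs1
    have hs32 : 32 * s ≤ A := by
      have : V * σ ≤ V * σ0 := mul_le_mul_of_nonneg_left hσ'.le hV.le
      linarith
    have hlam1 : 1 / pi_ n - 1 ≤ 1 := by
      rw [one_div]
      exact le_trans h5.le (min_le_left _ _)
    have hlam2 : 1 / pi_ n - 1 ≤ ε1 * σ / (6 * K) := by
      rw [one_div]
      exact le_trans h5.le (min_le_right _ _)
    have hg20 : ∀ m, 0 ≤ g2 m := fun m => le_trans (hf0 m) (hfg m)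
    -- the exponents
    obtain ⟨E, hE⟩ : ∃ E : ℕ → ℝ, E = fun j : ℕ => -s * (j : ℝ) ^ 2 / L ^ 3
        + (L + 1) ^ 3 * Fpp n (μ + 2 * s * (j : ℝ) / L ^ 3) := ⟨_, rfl⟩
    have hJ1 : 0 < ⌈d1v * L ^ 3⌉₊ := Nat.ceil_pos.mpr (by positivity)
    have hE0 : 0 ≤ E 0 := by
      have e0 : E 0 = (L + 1) ^ 3 * Fpp n (μ + 2 * s * ((0 : ℕ) : ℝ) / L ^ 3) := by
        rw [hE]
        simp
      rw [e0]
      have := hFpp0 n (μ + 2 * s * ((0 : ℕ) : ℝ) / L ^ 3)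
      positivity
    have htail : ∀ j, ⌈d1v * L ^ 3⌉₊ ≤ j → E j ≤ -κ * j := by
      intro j hj
      have hx : d1v * L ^ 3 ≤ (j : ℝ) := Nat.ceil_le.mp hj
      have hj0 : (0 : ℝ) ≤ (j : ℝ) := Nat.cast_nonneg j
      have hu : 0 ≤ 2 * s * (j : ℝ) / L ^ 3 := by positivity
      have hΦ : Fpp n (μ + 2 * s * (j : ℝ) / L ^ 3)
          ≤ 2 * (1 + (|μ + C| + 2 * s * (j : ℝ) / L ^ 3) ^ 2 / (4 * A)) := by
        have a1 := hMn (μ + 2 * s * (j : ℝ) / L ^ 3)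
        have a2 := hfg (μ + 2 * s * (j : ℝ) / L ^ 3)
        have a3 := lp5_quad g2 A C hA0 hQ μ (2 * s * (j : ℝ) / L ^ 3) hu
        have a4 : (1 / pi_ n - 1) * g2 (μ + 2 * s * (j : ℝ) / L ^ 3)
            ≤ 1 * g2 (μ + 2 * s * (j : ℝ) / L ^ 3) :=
          mul_le_mul_of_nonneg_right hlam1 (hg20 _)
        linarith
      have hfin := lp5_tail V σ s L A (|μ + C|) c0 d1v (j : ℝ) _ hV hσ hs1 hs32 h1 hc0 hd1pos
        hd1sq hx hΦ
      rw [hE, hκdef]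
      exact hfin
    obtain ⟨jstar, hjs, hsum⟩ := sum_exp_le E ⌈d1v * L ^ 3⌉₊ hJ1 κ hκ hE0 htail
    have hJT : 0 < (⌈d1v * L ^ 3⌉₊ : ℝ) + T := by positivity
    have hFn : Fn n σ ≤ Real.log (((⌈d1v * L ^ 3⌉₊ : ℝ) + T) * Real.exp (E jstar)) / L ^ 3 := by
      apply hCn
      intro J
      have := hsum J
      rw [← hTdef] at this
      rw [hE] at this
      rw [hE]
      exact this
    rw [Real.log_mul hJT.ne' (Real.exp_pos _).ne', Real.log_exp, add_div] at hFn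
    -- the logarithmic term
    have hceil : (⌈d1v * L ^ 3⌉₊ : ℝ) < d1v * L ^ 3 + 1 := Nat.ceil_lt_add_one (by positivity)
    have hL31 : 1 ≤ L ^ 3 := one_le_pow₀ hL1
    have hL21 : 1 ≤ L ^ 2 := one_le_pow₀ hL1
    have hb1 : Real.log ((⌈d1v * L ^ 3⌉₊ : ℝ) + T) ≤ G * L ^ 2 := by
      have e1 : (⌈d1v * L ^ 3⌉₊ : ℝ) + T ≤ (d1v + 1 + T) * L ^ 3 := by
        have : (1 + T) * 1 ≤ (1 + T) * L ^ 3 := mul_le_mul_of_nonneg_left hL31 (by linarith)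
        linarith
      have e2 : Real.log ((⌈d1v * L ^ 3⌉₊ : ℝ) + T) ≤ Real.log ((d1v + 1 + T) * L ^ 3) :=
        Real.log_le_log hJT e1
      have e3 : Real.log ((d1v + 1 + T) * L ^ 3) = Real.log (d1v + 1 + T) + 3 * Real.log L := by
        rw [Real.log_mul (by positivity) (by positivity), Real.log_pow]
        norm_num
      have e4 : Real.log L ≤ L - 1 := Real.log_le_sub_one_of_pos hL0
      have e5 : Real.log (d1v + 1 + T) ≤ |Real.log (d1v + 1 + T)| := le_abs_self _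
      have e6 : |Real.log (d1v + 1 + T)| ≤ |Real.log (d1v + 1 + T)| * L ^ 2 :=
        le_mul_of_one_le_right (abs_nonneg _) hL21
      have e7 : 3 * (L - 1) ≤ 3 * L ^ 2 := by
        have : L ≤ L ^ 2 := le_self_pow₀ hL1 (by norm_num)
        linarith
      rw [hGdef]
      linarith
    have hb1' : Real.log ((⌈d1v * L ^ 3⌉₊ : ℝ) + T) / L ^ 3 ≤ ε1 * σ / 3 := by
      rw [div_le_iff₀ hL3]
      have h3' : 3 * G ≤ L * (ε1 * σ) := by rwa [div_le_iff₀ hεσ] at h3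
      have hG : G ≤ ε1 * σ / 3 * L := by linarith
      have : G * L ^ 2 ≤ ε1 * σ / 3 * L ^ 3 := by
        calc G * L ^ 2 ≤ (ε1 * σ / 3 * L) * L ^ 2 :=
              mul_le_mul_of_nonneg_right hG (by positivity)
          _ = ε1 * σ / 3 * L ^ 3 := by ring
      linarith
    -- the main term
    obtain ⟨d, hd⟩ : ∃ d : ℝ, d = (jstar : ℝ) / L ^ 3 := ⟨_, rfl⟩
    have hd0 : 0 ≤ d := by
      rw [hd]
      positivity
    have hjlt : (jstar : ℝ) < d1v * L ^ 3 := Nat.lt_ceil.mp hjs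
    have hdd : d ≤ d1v := by
      rw [hd, div_le_iff₀ hL3]
      exact hjlt.le
    have em : μ + 2 * s * (jstar : ℝ) / L ^ 3 = μ + 2 * s * d := by
      rw [hd]
      ring
    obtain ⟨Φ, hΦdef⟩ : ∃ Φ : ℝ, Φ = Fpp n (μ + 2 * s * d) := ⟨_, rfl⟩
    obtain ⟨ρ, hρ⟩ : ∃ ρ : ℝ, ρ = (L + 1) ^ 3 / L ^ 3 := ⟨_, rfl⟩
    have hEs2 : E jstar / L ^ 3 = -s * d ^ 2 + ρ * Φ := by
      have hEs : E jstar = -s * (jstar : ℝ) ^ 2 / L ^ 3
          + (L + 1) ^ 3 * Fpp n (μ + 2 * s * (jstar : ℝ) / L ^ 3) := by rw [hE]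
      rw [hEs, em, ← hΦdef, hρ, hd]
      field_simp
    have hu : 0 ≤ 2 * s * d := by positivity
    have hg2K : g2 (μ + 2 * s * d) ≤ K := by
      have a3 := lp5_quad g2 A C hA0 hQ μ (2 * s * d) hu
      have a5 : 2 * s * d ≤ 2 * V * σ * d1v := by
        have : s * d ≤ (V * σ) * d1v := mul_le_mul hs3 hdd hd0 (by positivity)
        linarith
      have a6 : (|μ + C| + 2 * s * d) ^ 2 ≤ (|μ + C| + 2 * V * σ * d1v) ^ 2 := by
        apply pow_le_pow_left₀ (by positivity) (by linarith)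
      have a7 : (|μ + C| + 2 * s * d) ^ 2 / (4 * A) ≤ (|μ + C| + 2 * V * σ * d1v) ^ 2 / (4 * A) :=
        div_le_div_of_nonneg_right a6 (by positivity)
      rw [hKdef]
      linarith
    have hfK : f (μ + 2 * s * d) ≤ K := le_trans (hfg _) hg2K
    have hlamg : (1 / pi_ n - 1) * g2 (μ + 2 * s * d) ≤ ε1 * σ / 6 := by
      by_cases hneg : 1 / pi_ n - 1 ≤ 0
      · have h' : (1 / pi_ n - 1) * g2 (μ + 2 * s * d) ≤ 0 :=
          mul_nonpos_of_nonpos_of_nonneg hneg (hg20 _)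
        have : 0 ≤ ε1 * σ / 6 := by positivity
        linarith
      · have hpos : 0 ≤ 1 / pi_ n - 1 := (not_le.mp hneg).le
        calc (1 / pi_ n - 1) * g2 (μ + 2 * s * d) ≤ (1 / pi_ n - 1) * K :=
              mul_le_mul_of_nonneg_left hg2K hpos
          _ ≤ ε1 * σ / (6 * K) * K := mul_le_mul_of_nonneg_right hlam2 (by linarith)
          _ = ε1 * σ / 6 := by
              field_simp
    have hΦb : Φ ≤ f (μ + 2 * s * d) + ε1 * σ / 6 := by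
      have := hMn (μ + 2 * s * d)
      rw [hΦdef]
      linarith
    have hρ1 : ρ ≤ 1 + 7 / L := by
      rw [hρ]
      exact lp5_cube_ratio L hL1
    have hρ2 : ρ ≤ 2 := by
      rw [hρ, div_le_iff₀ hL3]
      exact lp5_cube_le L h1
    have hρ0 : 0 ≤ ρ := by
      rw [hρ]
      positivity
    have h7K : 7 / L * K ≤ ε1 * σ / 3 := by
      have h2' : 21 * K ≤ L * (ε1 * σ) := by rwa [div_le_iff₀ hεσ] at h2
      rw [div_mul_eq_mul_div, div_le_iff₀ hL0]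
      linarith
    have hρΦ : ρ * Φ ≤ f (μ + 2 * s * d) + 2 * (ε1 * σ / 3) := by
      have hf0' := hf0 (μ + 2 * s * d)
      have t1 : ρ * Φ ≤ ρ * (f (μ + 2 * s * d) + ε1 * σ / 6) :=
        mul_le_mul_of_nonneg_left hΦb hρ0
      have t2 : (ρ - 1) * f (μ + 2 * s * d) ≤ 7 / L * K := by
        have q1 : (ρ - 1) * f (μ + 2 * s * d) ≤ (7 / L) * f (μ + 2 * s * d) :=
          mul_le_mul_of_nonneg_right (by linarith) hf0'
        have q2 : (7 / L) * f (μ + 2 * s * d) ≤ 7 / L * K :=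
          mul_le_mul_of_nonneg_left hfK (by positivity)
        linarith
      have t3 : ρ * (ε1 * σ / 6) ≤ 2 * (ε1 * σ / 6) :=
        mul_le_mul_of_nonneg_right hρ2 (by positivity)
      have t4 : ρ * (f (μ + 2 * s * d) + ε1 * σ / 6)
          = f (μ + 2 * s * d) + (ρ - 1) * f (μ + 2 * s * d) + ρ * (ε1 * σ / 6) := by ring
      linarith
    rw [hEs2] at hFn
    refine ⟨s, d, hs1, ?_, hd0, ?_, ?_⟩
    · have : V * (1 + ε1) * σ / 2 ≤ V * (1 + ε) * σ / 2 := by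
        have : V * σ * ε1 ≤ V * σ * ε := mul_le_mul_of_nonneg_left hε1ε (by positivity)
        linarith
      linarith
    · show d ≤ k / Real.sqrt σ
      rw [← hd1v]
      exact hdd
    · have : ε1 * σ ≤ ε * σ := mul_le_mul_of_nonneg_right hε1ε hσ.le
      linarith

end Vale.Agent.H68.P171
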