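import Mathlib
import Vale.Agent.H68.P171.LP5
import Vale.Agent.H29.P171.Endgame

/-!
# P171, rows LP5 + LP6 combined: the kink

The hypotheses of `lp5_hup` together with the left-slope bound (E1) exclude differentiability of
`f` at `μ` as soon as `V / 2 * a^2 < c`.
-/

open Filter Topology Finset

namespace Vale.Agent.H68.P171

theorem lp56_not_differentiableAt (f g2 : ℝ → ℝ) (Fn Fpp : ℕ → ℝ → ℝ) (l pi_ tau : ℕ → ℝ)
    (n0 : ℕ) (μ V c a σ0 A C : ℝ) (hV : 0 < V) (hσ0 : 0 < σ0) (hA : 32 * V * σ0 ≤ A)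
    (hl : Tendsto l atTop atTop) (hpi : Tendsto pi_ atTop (𝓝 1))
    (htau0 : ∀ n, 0 ≤ tau n) (htau : Tendsto tau atTop (𝓝 0))
    (hf0 : ∀ m, 0 ≤ f m) (hfg : ∀ m, f m ≤ g2 m)
    (hQ : ∀ m, g2 m ≤ 1 + (max (m + C) 0) ^ 2 / (4 * A))
    (hFpp0 : ∀ n m, 0 ≤ Fpp n m)
    (hM : ∀ n, n0 ≤ n → 1 / 2 ≤ pi_ n → ∀ m, Fpp n m ≤ f m + (1 / pi_ n - 1) * g2 m)
    (hE2 : ∀ n σ, 0 < σ → f μ + c * σ ≤ Fn n σ)
    (hC : ∀ n, n0 ≤ n → ∀ σ, 0 < σ → σ ≤ σ0 → ∀ S : ℝ,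
      (∀ J : Finset ℕ, ∑ j ∈ J, Real.exp (-(V / 2 * (σ + tau n)) * (j : ℝ) ^ 2 / l n ^ 3
          + (l n + 1) ^ 3 * Fpp n (μ + 2 * (V / 2 * (σ + tau n)) * (j : ℝ) / l n ^ 3)) ≤ S) →
      Fn n σ ≤ Real.log S / l n ^ 3)
    (ha : 0 ≤ a) (hE1 : ∀ u, 0 < u → f μ - f (μ - u) ≤ a * u) (hc : V / 2 * a ^ 2 < c) :
    ¬ DifferentiableAt ℝ f μ := by
  obtain ⟨d1, hd1, hup⟩ := lp5_hup f g2 Fn Fpp l pi_ tau n0 μ V c σ0 A C hV hσ0 hA hl hpi htau0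
    htau hf0 hfg hQ hFpp0 hM hE2 hC
  have hkink := Vale.Agent.H29.P171.kink_endgame_sd (fun u => f (μ + u)) a c V σ0 hV ha hσ0
    (by
      intro u hu
      have := hE1 u hu
      simpa [sub_eq_add_neg] using this)
    d1 hd1
    (by
      intro σ hσ hσ' ε hε
      obtain ⟨s, d, h1, h2, h3, h4, h5⟩ := hup σ hσ hσ' ε hε
      refine ⟨s, d, h1, h2, h3, h4, ?_⟩
      simpa using h5)
    hc
  intro hdiff
  apply hkink
  have h1 : DifferentiableAt ℝ (fun u : ℝ => μ + u) 0 :=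
    (differentiableAt_const μ).add differentiableAt_id
  have h2 : DifferentiableAt ℝ f (μ + 0) := by
    rw [add_zero]
    exact hdiff
  exact DifferentiableAt.comp (0 : ℝ) h2 h1

end Vale.Agent.H68.P171
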